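import Mathlib

/-!
P254, line (SP_0), row P3 (helper979): real algebra of the column certificate for `q ∈ [0,4]`
(plain Mathlib).
-/

set_option autoImplicit false

namespace Vale.Agent.P254.SP979

open Real

/-- Padé upper bound of the logarithm -/
theorem log_pade {u : ℝ} (hu : -1 < u) : Real.log (1 + u) ≤ u * (6 + u) / (6 + 4 * u) := by
  have hd : ∀ y : ℝ, -1 < y → HasDerivAt (fun y => y * (6 + y) / (6 + 4 * y) - Real.log (1 + y))
      (4 * y ^ 3 / ((1 + y) * (6 + 4 * y) ^ 2)) y := by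
    intro y hy
    have h1 : (6 + 4 * y) ≠ 0 := by linarith
    have h2 : (1 + y) ≠ 0 := by linarith
    have e1 : HasDerivAt (fun y : ℝ => y * (6 + y)) (6 + 2 * y) y := by
      have := (hasDerivAt_id y).mul ((hasDerivAt_id y).const_add 6)
      refine this.congr_deriv ?_
      simp only [id]
      ring
    have e2 : HasDerivAt (fun y : ℝ => 6 + 4 * y) 4 y := by
      have := ((hasDerivAt_id y).const_mul 4).const_add 6
      simpa using this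
    have e3 : HasDerivAt (fun y : ℝ => Real.log (1 + y)) (1 / (1 + y)) y := by
      have := ((hasDerivAt_id y).const_add 1).log h2
      simpa using this
    refine ((e1.div e2 h1).sub e3).congr_deriv ?_
    rw [div_sub_div _ _ (pow_ne_zero 2 h1) h2, div_eq_div_iff
      (mul_ne_zero (pow_ne_zero 2 h1) h2) (mul_ne_zero h2 (pow_ne_zero 2 h1))]
    ring
  rcases lt_trichotomy u 0 with h | h | h
  · obtain ⟨y, hy, hy'⟩ := exists_hasDerivAt_eq_slope _ _ h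
      (fun y hy => (hd y (by linarith [hy.1])).continuousAt.continuousWithinAt)
      (fun y hy => hd y (by linarith [hy.1]))
    have hy0 : 4 * y ^ 3 / ((1 + y) * (6 + 4 * y) ^ 2) ≤ 0 := by
      apply div_nonpos_of_nonpos_of_nonneg
      · have : y ^ 3 ≤ 0 := by
          have := Odd.pow_nonpos (n := 3) (by decide) hy.2.le
          exact this
        linarith
      · have : 0 < 1 + y := by linarith [hy.1]
        positivity
    rw [hy'] at hy0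
    have hpos : 0 < 0 - u := by linarith
    rw [div_nonpos_iff] at hy0
    rcases hy0 with ⟨_, h'⟩ | ⟨h', _⟩
    · linarith
    · simp at h'
      linarith
  · subst h
    simp
  · obtain ⟨y, hy, hy'⟩ := exists_hasDerivAt_eq_slope _ _ h
      (fun y hy => (hd y (by linarith [hy.1])).continuousAt.continuousWithinAt)
      (fun y hy => hd y (by linarith [hy.1]))
    have hy0 : 0 ≤ 4 * y ^ 3 / ((1 + y) * (6 + 4 * y) ^ 2) := by
      have : 0 < y := hy.1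
      positivity
    rw [hy'] at hy0
    have hpos : 0 < u - 0 := by linarith
    rw [div_nonneg_iff] at hy0
    rcases hy0 with ⟨h', _⟩ | ⟨_, h'⟩
    · simp at h'
      linarith
    · linarith

theorem clog {u : ℝ} (hu : -1 < u) :
    (1 + u) * Real.log (1 + u) - (1 + u) + 1 ≤ u ^ 2 * ((3 + u) / (6 + 4 * u)) := by
  have h := mul_le_mul_of_nonneg_left (log_pade hu) (by linarith : (0 : ℝ) ≤ 1 + u)
  have h1 : (6 + 4 * u) ≠ 0 := by linarith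
  have e : (1 + u) * (u * (6 + u) / (6 + 4 * u)) - (1 + u) + 1 = u ^ 2 * ((3 + u) / (6 + 4 * u)) := by
    have e1 : u ^ 2 * ((3 + u) / (6 + 4 * u)) = u ^ 2 * (3 + u) / (6 + 4 * u) := by ring
    have e2 : (1 + u) * (u * (6 + u) / (6 + 4 * u)) = (1 + u) * (u * (6 + u)) / (6 + 4 * u) := by ring
    rw [e1, e2, eq_div_iff h1, add_mul, sub_mul, div_mul_cancel₀ _ h1]
    ring
  linarith

/-- form (A) -/
theorem coreA {c si v th nu b1 mu D l5 L6 U S f al k1 : ℝ} (hS0 : 0 ≤ S) (hS1 : S ≤ 1 / 2)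
    (hv : v = 1 + si) (hv0 : 0 ≤ v) (hth : 0 < th) (hl5 : 0 < l5) (hU : 0 ≤ U) (hu : mu * D ≤ U)
    (s1 : v * (1 + 1 / th) + U * (1 + 2 / th) ≤ c * b1)
    (s2 : L6 + c * nu + v * (1 + th) / 16 + U * (1 + th / 2) / 4 + mu ^ 2 / (256 * l5)
      ≤ c - (1 + 1 / si) / 16) :
    0 ≤ (c - (1 + 1 / si) / 16) * f ^ 2 - mu * D * (S * f + k1) ^ 2
      - (1 + si) * (S * f + k1 - 1 / 4 * f) ^ 2 - mu * D * (S ^ 2 * al * f)
      + D ^ 2 * l5 * al ^ 2 + mu * D / 8 * (al * f) - L6 * f ^ 2 - c * nu * f ^ 2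
      + c * b1 * k1 ^ 2 := by
  have hf : 0 ≤ f ^ 2 := sq_nonneg f
  have hk : 0 ≤ k1 ^ 2 := sq_nonneg k1
  -- the squares
  have q1 : (S * f + k1 - 1 / 4 * f) ^ 2 ≤ (1 + th) / 16 * f ^ 2 + (1 + 1 / th) * k1 ^ 2 := by
    have e : (1 + th) * ((S - 1 / 4) ^ 2 * f ^ 2) + (1 + 1 / th) * k1 ^ 2
        - (S * f + k1 - 1 / 4 * f) ^ 2 = (th * ((S - 1 / 4) * f) - k1) ^ 2 / th := by
      field_simp
      ring
    have e' : 0 ≤ (th * ((S - 1 / 4) * f) - k1) ^ 2 / th := by positivity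
    have hS : (S - 1 / 4) ^ 2 ≤ 1 / 16 := by nlinarith
    have h2 : (1 + th) * ((S - 1 / 4) ^ 2 * f ^ 2) ≤ (1 + th) * (1 / 16 * f ^ 2) := by
      apply mul_le_mul_of_nonneg_left _ (by linarith)
      exact mul_le_mul_of_nonneg_right hS hf
    linarith
  have q2 : (S * f + k1) ^ 2 ≤ (1 + th / 2) / 4 * f ^ 2 + (1 + 2 / th) * k1 ^ 2 := by
    have e : (1 + th / 2) * (S ^ 2 * f ^ 2) + (1 + 2 / th) * k1 ^ 2
        - (S * f + k1) ^ 2 = 2 * (th / 2 * (S * f) - k1) ^ 2 / th := by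
      field_simp
      ring
    have e' : 0 ≤ 2 * (th / 2 * (S * f) - k1) ^ 2 / th := by positivity
    have hS : S ^ 2 ≤ 1 / 4 := by nlinarith
    have h2 : (1 + th / 2) * (S ^ 2 * f ^ 2) ≤ (1 + th / 2) * (1 / 4 * f ^ 2) := by
      apply mul_le_mul_of_nonneg_left _ (by linarith)
      exact mul_le_mul_of_nonneg_right hS hf
    linarith
  have q3 : 0 ≤ D ^ 2 * l5 * al ^ 2 + mu * D * (1 / 8 - S ^ 2) * (al * f)
      + mu ^ 2 / (256 * l5) * f ^ 2 := by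
    have e : D ^ 2 * l5 * al ^ 2 + mu * D * (1 / 8 - S ^ 2) * (al * f)
        + mu ^ 2 / (256 * l5) * f ^ 2
        = l5 * (D * al + mu * (1 / 8 - S ^ 2) * f / (2 * l5)) ^ 2
          + mu ^ 2 * f ^ 2 / (4 * l5) * (1 / 64 - (1 / 8 - S ^ 2) ^ 2) := by
      field_simp
      ring
    rw [e]
    have hS : 0 ≤ 1 / 64 - (1 / 8 - S ^ 2) ^ 2 := by
      have h0 : 0 ≤ S ^ 2 := sq_nonneg S
      have h1 : S ^ 2 ≤ 1 / 4 := by nlinarith
      nlinarith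
    positivity
  have m1 : v * (S * f + k1 - 1 / 4 * f) ^ 2
      ≤ v * ((1 + th) / 16 * f ^ 2 + (1 + 1 / th) * k1 ^ 2) := mul_le_mul_of_nonneg_left q1 hv0
  have m2 : mu * D * (S * f + k1) ^ 2 ≤ U * (S * f + k1) ^ 2 :=
    mul_le_mul_of_nonneg_right hu (sq_nonneg _)
  have m3 : U * (S * f + k1) ^ 2 ≤ U * ((1 + th / 2) / 4 * f ^ 2 + (1 + 2 / th) * k1 ^ 2) :=
    mul_le_mul_of_nonneg_left q2 hU
  have m4 := mul_le_mul_of_nonneg_right s1 hk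
  have m5 := mul_le_mul_of_nonneg_right s2 hf
  rw [← hv]
  nlinarith [m1, m2, m3, m4, m5, q3]

/-- form (B) -/
theorem coreB {D mu l1 l2 l3 l4 l5 t0 k Y Z C c q nu qi rho P0 L6 w th S r2 g x y ze k0 k1 lg E1
    B2 B3 mn : ℝ} (hY : 0 < Y) (hZ : 0 < Z) (hk : 1 < k)
    (hsq : 15 / 2 * r2 ^ 2 ≤ S * (1 / 2 - S))
    (hphi : 0 ≤ mu * w + l4 * g + t0 * g ^ 2 - C - (mu * th + l1 + l2 * g) ^ 2 / (4 * Y)
      - (mu * w + l3) ^ 2 / (4 * Z))
    (h3 : k ≤ B2 * (k - 1)) (hB3 : 0 < B3) (h4 : Z + k / 120 ≤ c * nu * qi)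
    (h5 : Y ≤ -P0 + 2 * L6 - k / 16 - D * l2 - D ^ 2 * t0 - c * rho)
    (h6 : E1 + (l5 + t0) * q + k / 120 + mu ^ 2 / (4 * B3) + c * rho ≤ C)
    (hlg : lg ≤ D ^ 2 * E1) (hmn : mn ≤ D ^ 2) (hrc : 0 ≤ c * rho) :
    0 ≤ -(P0 * y ^ 2) - (S * y + D * r2 * x + r2 * ze + k0 - 1 / 4 * y) ^ 2
      + mu * D * (D * (w * x ^ 2) + w * x * ze + th * x * y) - lg * x ^ 2
      + D * l1 * (x * y) + (D * l2 + D ^ 2 * t0) * (g * x * y - y ^ 2)
      + (D * (l3 + k / 60) + D ^ 2 * t0) * (x * ze) + D ^ 2 * l4 * (g * x ^ 2)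
      - D ^ 2 * l5 * q * x ^ 2
      + D ^ 2 * t0 * (g * g * x ^ 2 - g * x * y - 1 * x * (q * x + ze))
      + 2 * L6 * y ^ 2 + x * (mu * D * k1) + c * nu * qi * ze ^ 2 + B2 * k0 ^ 2 + B3 * k1 ^ 2
      - c * rho * (y ^ 2 + mn * x ^ 2) := by
  obtain ⟨X, hX⟩ : ∃ X, X = D * x := ⟨_, rfl⟩
  have hX2 : X ^ 2 = D ^ 2 * x ^ 2 := by rw [hX]; ring
  -- the square
  have q1 : (S * y + D * r2 * x + r2 * ze + k0 - 1 / 4 * y) ^ 2
      ≤ k * ((S - 1 / 4) * y + r2 * (X + ze)) ^ 2 + B2 * k0 ^ 2 := by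
    obtain ⟨A, hA⟩ : ∃ A, A = (S - 1 / 4) * y + r2 * (X + ze) := ⟨_, rfl⟩
    have e0 : S * y + D * r2 * x + r2 * ze + k0 - 1 / 4 * y = A + k0 := by rw [hA, hX]; ring
    rw [e0, ← hA]
    have hk1 : 0 < k - 1 := by linarith
    have e1 : k * A ^ 2 + k / (k - 1) * k0 ^ 2 - (A + k0) ^ 2 = ((k - 1) * A - k0) ^ 2 / (k - 1) := by
      field_simp
      ring
    have e2 : 0 ≤ ((k - 1) * A - k0) ^ 2 / (k - 1) := by positivity
    have e3 : k / (k - 1) ≤ B2 := by rwa [div_le_iff₀ hk1]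
    have e4 := mul_le_mul_of_nonneg_right e3 (sq_nonneg k0)
    linarith
  have q2 : ((S - 1 / 4) * y + r2 * (X + ze)) ^ 2 ≤ 1 / 16 * y ^ 2 + 1 / 120 * (X + ze) ^ 2 := by
    have e1 : ((S - 1 / 4) ^ 2 + 15 / 2 * r2 ^ 2) * (y ^ 2 + 2 / 15 * (X + ze) ^ 2)
        - ((S - 1 / 4) * y + r2 * (X + ze)) ^ 2
        = 2 / 15 * ((S - 1 / 4) * (X + ze) - 15 / 2 * r2 * y) ^ 2 := by ring
    have e2 : (S - 1 / 4) ^ 2 + 15 / 2 * r2 ^ 2 ≤ 1 / 16 := by nlinarith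
    have e3 : ((S - 1 / 4) ^ 2 + 15 / 2 * r2 ^ 2) * (y ^ 2 + 2 / 15 * (X + ze) ^ 2)
        ≤ 1 / 16 * (y ^ 2 + 2 / 15 * (X + ze) ^ 2) :=
      mul_le_mul_of_nonneg_right e2 (by positivity)
    have e4 := sq_nonneg ((S - 1 / 4) * (X + ze) - 15 / 2 * r2 * y)
    linarith
  have q3 := mul_le_mul_of_nonneg_left q2 (by linarith : (0 : ℝ) ≤ k)
  -- the commutator
  have q4 : 0 ≤ B3 * k1 ^ 2 + mu * X * k1 + mu ^ 2 / (4 * B3) * X ^ 2 := by
    have e : B3 * k1 ^ 2 + mu * X * k1 + mu ^ 2 / (4 * B3) * X ^ 2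
        = B3 * (k1 + mu * X / (2 * B3)) ^ 2 := by
      field_simp
      ring
    rw [e]
    positivity
  -- the main form
  have q5 : 0 ≤ X ^ 2 * (mu * w + l4 * g + t0 * g ^ 2 - C) + X * y * (mu * th + l1 + l2 * g)
      + X * ze * (mu * w + l3) + Y * y ^ 2 + Z * ze ^ 2 := by
    have e : X ^ 2 * (mu * w + l4 * g + t0 * g ^ 2 - C) + X * y * (mu * th + l1 + l2 * g)
        + X * ze * (mu * w + l3) + Y * y ^ 2 + Z * ze ^ 2
        = Y * (y + (mu * th + l1 + l2 * g) * X / (2 * Y)) ^ 2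
          + Z * (ze + (mu * w + l3) * X / (2 * Z)) ^ 2
          + X ^ 2 * (mu * w + l4 * g + t0 * g ^ 2 - C - (mu * th + l1 + l2 * g) ^ 2 / (4 * Y)
            - (mu * w + l3) ^ 2 / (4 * Z)) := by
      field_simp
      ring
    rw [e]
    positivity
  have q6 := mul_le_mul_of_nonneg_right hlg (sq_nonneg x)
  have q7 := mul_le_mul_of_nonneg_right hmn (mul_nonneg hrc (sq_nonneg x))
  have q8 := mul_le_mul_of_nonneg_right h6 (sq_nonneg X)
  have q9 := mul_le_mul_of_nonneg_right h5 (sq_nonneg y)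
  have q10 := mul_le_mul_of_nonneg_right h4 (sq_nonneg ze)
  obtain ⟨M, hM⟩ : ∃ M, M = mu ^ 2 / (4 * B3) := ⟨_, rfl⟩
  rw [← hM] at q4 q8
  obtain ⟨A, hA⟩ : ∃ A, A = (S * y + D * r2 * x + r2 * ze + k0 - 1 / 4 * y) ^ 2 := ⟨_, rfl⟩
  rw [← hA] at q1 ⊢
  obtain ⟨A', hA'⟩ : ∃ A', A' = ((S - 1 / 4) * y + r2 * (X + ze)) ^ 2 := ⟨_, rfl⟩
  rw [← hA'] at q1 q3
  clear q2 hphi hsq hlg hmn h3 h4 h5 h6 hM hA hA' hX2
  subst hX
  linarith [q1, q3, q4, q5, q6, q7, q8, q9, q10]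

end Vale.Agent.P254.SP979
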