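import Vale.Agent.P254.H721.Cert
import Vale.Agent.P254.SP.H448.OneD

/-!
P254, line (SP_0), row P3 (helper979): the four one-variable inequalities `0 ≤ PHI` which carry the
column certificate for `q ∈ [0,4]`.
-/

set_option autoImplicit false

namespace Vale.Agent.P254.SP979

open Real Set Vale.Agent.P254 H721 H721.Cert

/-- `μ w + l4 g + t0 g² - C - (μ θ + l1 + l2 g)²/(4Y) - (μ w + l3)²/(4Z)`, `w = r' + r r''`,
`θ = r (1 + r')` -/
noncomputable def PHI (mu l1 l2 l3 l4 t0 Y Z C g : ℝ) : ℝ :=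
  mu * (r1 g + r g * r2 g) + l4 * g + t0 * g ^ 2 - C
    - (mu * (r g + r g * r1 g) + l1 + l2 * g) ^ 2 / (4 * Y)
    - (mu * (r1 g + r g * r2 g) + l3) ^ 2 / (4 * Z)

/-- `w` as an expression -/
def eW : Pe := eR1 + .r * eR2
/-- `θ` as an expression -/
def eTh : Pe := .r + .r * eR1

/-! ### left tail -/

theorem r_le_left {g : ℝ} (hg : g ≤ -5) : r g ≤ 1 / 5 := by
  have h1 := r_mul_mm_lt g
  have h2 := mm_ge (g := g)
  have h3 := r_pos g
  nlinarith

theorem r1_five : r1 (-5) ≤ 1 / 20 := by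
  have h := cert (e := .c 1 20 - eR1) envOK_nil 64 [(1, 1)] (by decide) (by decide +kernel)
    (x := -5) (by norm_num) (by norm_num [tot])
  simp only [ev_sub, ev_c, ev_eR1] at h
  push_cast at h
  linarith

theorem r1_le_left {g : ℝ} (hg : g ≤ -5) : r1 g ≤ 1 / 20 := (r1_mono.monotone hg).trans r1_five

theorem r2_lt_r {g : ℝ} (hg : g ≤ 0) : r2 g < r g := by
  have h1 := L_eq g
  have h2 := L_pos g
  have h3 := r1_pos g
  nlinarith

theorem th_left {g : ℝ} (hg : g ≤ -5) : 0 < r g + r g * r1 g ∧ r g + r g * r1 g ≤ 21 / 100 := by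
  have h1 := r_pos g
  have h2 := r1_pos g
  have h3 := r_le_left hg
  have h4 := r1_le_left hg
  constructor
  · positivity
  · nlinarith

theorem w_pos' (g : ℝ) : 0 < r1 g + r g * r2 g := by
  have h1 := r_pos g
  have h2 := r1_pos g
  have h3 := r2_pos g
  positivity

theorem w_left {g : ℝ} (hg : g ≤ -5) : r1 g + r g * r2 g ≤ 1 / 2 := by
  have h1 := r_pos g
  have h3 := r_le_left hg
  have h4 := r1_le_left hg
  have h5 := r2_lt_r (show g ≤ 0 by linarith)
  have h6 := r2_pos g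
  nlinarith

theorem phi_tail_left {mu l1 l2 l3 l4 t0 Y Z C g : ℝ} (hY : 0 < Y) (hZ : 0 < Z) (hmu : 0 < mu)
    (hl2 : l2 < 0) (h1 : 0 ≤ l1 + l2 * (-5)) (h2 : mu * (1 / 2) ≤ -2 * l3) (hg : g ≤ -5)
    (hq : 0 ≤ l4 * g + t0 * g ^ 2 - C - (mu * (21 / 100) + l1 + l2 * g) ^ 2 / (4 * Y)
      - l3 ^ 2 / (4 * Z)) : 0 ≤ PHI mu l1 l2 l3 l4 t0 Y Z C g := by
  obtain ⟨t1, t2⟩ := th_left hg
  have w1 := w_pos' g
  have w2 := w_left hg
  unfold PHI
  set T := r g + r g * r1 g
  set W := r1 g + r g * r2 g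
  have a0 : 0 ≤ mu * T + l1 + l2 * g := by
    have : 0 < mu * T := mul_pos hmu t1
    nlinarith
  have a1 : mu * T + l1 + l2 * g ≤ mu * (21 / 100) + l1 + l2 * g := by
    have := mul_le_mul_of_nonneg_left t2 hmu.le
    linarith
  have a2 : (mu * T + l1 + l2 * g) ^ 2 ≤ (mu * (21 / 100) + l1 + l2 * g) ^ 2 :=
    pow_le_pow_left₀ a0 a1 2
  have b1 : (mu * W + l3) ^ 2 ≤ l3 ^ 2 := by
    have e1 : 0 < mu * W := mul_pos hmu w1
    have e2 : mu * W ≤ mu * (1 / 2) := mul_le_mul_of_nonneg_left w2 hmu.le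
    nlinarith
  have c1 := div_le_div_of_nonneg_right a2 (by positivity : (0 : ℝ) ≤ 4 * Y)
  have c2 := div_le_div_of_nonneg_right b1 (by positivity : (0 : ℝ) ≤ 4 * Z)
  have e1 : 0 < mu * W := mul_pos hmu w1
  linarith

/-! ### right tail -/

theorem r1_ten : 47 / 100 ≤ r1 10 := by
  have h := cert (e := eR1 - .c 47 100) envOK_nil 1023 [(1, 1)] (by decide) (by decide +kernel)
    (x := 10) (by norm_num) (by norm_num [tot])
  simp only [ev_sub, ev_c, ev_eR1] at h
  push_cast at h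
  linarith

theorem r_ten_le : r 10 ≤ 528 / 100 := by
  have h := cert (e := .c 528 100 - .r) envOK_nil 1023 [(1, 1)] (by decide) (by decide +kernel)
    (x := 10) (by norm_num) (by norm_num [tot])
  simp only [ev_sub, ev_c, ev_r] at h
  push_cast at h
  linarith

theorem r_ten_ge : 525 / 100 ≤ r 10 := by
  have h := cert (e := .r - .c 525 100) envOK_nil 1023 [(1, 1)] (by decide) (by decide +kernel)
    (x := 10) (by norm_num) (by norm_num [tot])
  simp only [ev_sub, ev_c, ev_r] at h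
  push_cast at h
  linarith

theorem r_right {g : ℝ} (hg : 10 ≤ g) :
    525 / 100 + 47 / 100 * (g - 10) ≤ r g ∧ r g ≤ 528 / 100 + 1 / 2 * (g - 10) := by
  rcases hg.eq_or_lt with rfl | hg
  · constructor
    · linarith [r_ten_ge]
    · linarith [r_ten_le]
  · obtain ⟨y, hy, hy'⟩ := exists_hasDerivAt_eq_slope r r1 hg
      (fun y _ => (hasDerivAt_r y).continuousAt.continuousWithinAt) (fun y _ => hasDerivAt_r y)
    have hpos : 0 < g - 10 := sub_pos.2 hg
    have e : r g - r 10 = r1 y * (g - 10) := by rw [hy', div_mul_cancel₀ _ hpos.ne']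
    have h1 := r1_lt y
    have h2 : r1 10 ≤ r1 y := r1_mono.monotone hy.1.le
    have h3 := r1_ten
    have h4 := r_ten_le
    have h5 := r_ten_ge
    constructor <;> nlinarith

theorem r1_right {g : ℝ} (hg : 10 ≤ g) : 47 / 100 ≤ r1 g := r1_ten.trans (r1_mono.monotone hg)

theorem th_right {g : ℝ} (hg : 10 ≤ g) : 69 / 100 * g + 8 / 10 ≤ r g + r g * r1 g ∧
    r g + r g * r1 g ≤ 3 / 4 * g + 42 / 100 := by
  obtain ⟨h1, h2⟩ := r_right hg
  have h3 := r1_right hg
  have h4 := r1_lt g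
  constructor <;> nlinarith

theorem w_right {g : ℝ} (hg : 10 ≤ g) : 47 / 100 ≤ r1 g + r g * r2 g ∧
    r1 g + r g * r2 g ≤ 1 / 2 := by
  have h1 := r1_right hg
  have h2 := r2_pos g
  have h3 := r_pos g
  have h5 : r1 g + r g * r2 g = SP448.w g := by
    unfold SP448.w
    have e1 : r1 g = H156.r1 g := r1_eq g
    have e2 : r2 g = H156.r2 g := by
      rw [r2_eq]
      unfold H156.r2
      have := vv_eq g
      have := g_eq g
      have e : H156.nu g = mm g := rfl
      have e' : H156.r g = r g := rfl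
      rw [e, e', vv_eq]
      linear_combination (r g * mm g) * (g_eq g)
    rw [e1, e2]
    rfl
  constructor
  · have : 0 < r g * r2 g := mul_pos h3 h2
    linarith
  · rw [h5]
    exact (SP448.w_lt_half g).le

theorem phi_tail_right {mu l1 l2 l3 l4 t0 Y Z C g : ℝ} (hY : 0 < Y) (hZ : 0 < Z) (hmu : 0 < mu)
    (h1 : 0 ≤ mu * (69 / 100) + l2) (h3 : 0 ≤ mu * (77 / 10) + l1 + l2 * 10)
    (hl3 : 0 ≤ mu * (47 / 100) + l3) (hg : 10 ≤ g)
    (hq : 0 ≤ mu * (47 / 100) + l4 * g + t0 * g ^ 2 - C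
      - (mu * (3 / 4 * g + 42 / 100) + l1 + l2 * g) ^ 2 / (4 * Y)
      - (mu * (1 / 2) + l3) ^ 2 / (4 * Z)) : 0 ≤ PHI mu l1 l2 l3 l4 t0 Y Z C g := by
  obtain ⟨t1, t2⟩ := th_right hg
  obtain ⟨w1, w2⟩ := w_right hg
  unfold PHI
  set T := r g + r g * r1 g
  set W := r1 g + r g * r2 g
  have m1 := mul_le_mul_of_nonneg_left t1 hmu.le
  have m2 := mul_le_mul_of_nonneg_left t2 hmu.le
  have m3 := mul_le_mul_of_nonneg_left w1 hmu.le
  have m4 := mul_le_mul_of_nonneg_left w2 hmu.le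
  have a0 : 0 ≤ mu * T + l1 + l2 * g := by nlinarith
  have a1 : mu * T + l1 + l2 * g ≤ mu * (3 / 4 * g + 42 / 100) + l1 + l2 * g := by linarith
  have a2 : (mu * T + l1 + l2 * g) ^ 2 ≤ (mu * (3 / 4 * g + 42 / 100) + l1 + l2 * g) ^ 2 :=
    pow_le_pow_left₀ a0 a1 2
  have b1 : (mu * W + l3) ^ 2 ≤ (mu * (1 / 2) + l3) ^ 2 :=
    pow_le_pow_left₀ (by linarith) (by linarith) 2
  have c1 := div_le_div_of_nonneg_right a2 (by positivity : (0 : ℝ) ≤ 4 * Y)
  have c2 := div_le_div_of_nonneg_right b1 (by positivity : (0 : ℝ) ≤ 4 * Z)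
  linarith

/-! ### range A -/

def eA : Pe := .c 14 100 * eW + .c (-101) 10000 * .x + .c 65 10000 * (.x * .x) - .c 30 1000
  - .c 1000 512 * ((.c 14 100 * eTh + .c (-159) 1000 + .c (-525) 10000 * .x) * (.c 14 100 * eTh + .c (-159) 1000 + .c (-525) 10000 * .x))
  - .c 1000 284 * ((.c 14 100 * eW + .c (-517) 10000) * (.c 14 100 * eW + .c (-517) 10000))

theorem phiA_mid {g : ℝ} (h1 : -5 ≤ g) (h2 : g ≤ 10) :
    0 ≤ PHI (14 / 100) (-159 / 1000) (-525 / 10000) (-517 / 10000) (-101 / 10000) (65 / 10000) (128 / 1000) (71 / 1000) (30 / 1000) g := by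
  have h := cert (e := eA) envOK_nil 64
    [(16, 3), (8, 114)] (by decide) (by decide +kernel)
    (x := g) (by norm_num; linarith) (by norm_num [tot]; linarith)
  simp only [eA, eW, eTh, ev_sub, ev_add, ev_mul, ev_c, ev_x, ev_r, ev_eR1, ev_eR2] at h
  push_cast at h
  unfold PHI
  refine h.trans (le_of_eq ?_)
  ring

theorem phiA (g : ℝ) : 0 ≤ PHI (14 / 100) (-159 / 1000) (-525 / 10000) (-517 / 10000) (-101 / 10000) (65 / 10000) (128 / 1000) (71 / 1000) (30 / 1000) g := by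
  rcases le_total g (-5) with h | h
  · refine phi_tail_left (by norm_num) (by norm_num) (by norm_num) (by norm_num) (by norm_num)
      (by norm_num) h ?_
    obtain ⟨s, hs, rfl⟩ : ∃ s : ℝ, 0 ≤ s ∧ g = -5 - s := ⟨-5 - g, by linarith, by ring⟩
    ring_nf
    positivity
  rcases le_total g 10 with h' | h'
  · exact phiA_mid h h'
  · refine phi_tail_right (by norm_num) (by norm_num) (by norm_num) (by norm_num) (by norm_num)
      (by norm_num) h' ?_
    obtain ⟨s, hs, rfl⟩ : ∃ s : ℝ, 0 ≤ s ∧ g = 10 + s := ⟨g - 10, by linarith, by ring⟩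
    ring_nf
    positivity

/-! ### range B -/

def eB : Pe := .c 22 100 * eW + .c (-16) 1000 * .x + .c 8 1000 * (.x * .x) - .c 61 1000
  - .c 1000 980 * ((.c 22 100 * eTh + .c (-249) 1000 + .c (-823) 10000 * .x) * (.c 22 100 * eTh + .c (-249) 1000 + .c (-823) 10000 * .x))
  - .c 10000 1592 * ((.c 22 100 * eW + .c (-81) 1000) * (.c 22 100 * eW + .c (-81) 1000))

theorem phiB_mid {g : ℝ} (h1 : -5 ≤ g) (h2 : g ≤ 10) :
    0 ≤ PHI (22 / 100) (-249 / 1000) (-823 / 10000) (-81 / 1000) (-16 / 1000) (8 / 1000) (245 / 1000) (398 / 10000) (61 / 1000) g := by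
  have h := cert (e := eB) envOK_nil 64
    [(8, 15), (4, 96), (8, 53), (4, 8)] (by decide) (by decide +kernel)
    (x := g) (by norm_num; linarith) (by norm_num [tot]; linarith)
  simp only [eB, eW, eTh, ev_sub, ev_add, ev_mul, ev_c, ev_x, ev_r, ev_eR1, ev_eR2] at h
  push_cast at h
  unfold PHI
  refine h.trans (le_of_eq ?_)
  ring

theorem phiB (g : ℝ) : 0 ≤ PHI (22 / 100) (-249 / 1000) (-823 / 10000) (-81 / 1000) (-16 / 1000) (8 / 1000) (245 / 1000) (398 / 10000) (61 / 1000) g := by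
  rcases le_total g (-5) with h | h
  · refine phi_tail_left (by norm_num) (by norm_num) (by norm_num) (by norm_num) (by norm_num)
      (by norm_num) h ?_
    obtain ⟨s, hs, rfl⟩ : ∃ s : ℝ, 0 ≤ s ∧ g = -5 - s := ⟨-5 - g, by linarith, by ring⟩
    ring_nf
    positivity
  rcases le_total g 10 with h' | h'
  · exact phiB_mid h h'
  · refine phi_tail_right (by norm_num) (by norm_num) (by norm_num) (by norm_num) (by norm_num)
      (by norm_num) h' ?_
    obtain ⟨s, hs, rfl⟩ : ∃ s : ℝ, 0 ≤ s ∧ g = 10 + s := ⟨g - 10, by linarith, by ring⟩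
    ring_nf
    positivity

/-! ### range C -/

def eC : Pe := .c 24 100 * eW + .c (-177) 10000 * .x + .c 71 10000 * (.x * .x) - .c 72 1000
  - .c 1000 1352 * ((.c 24 100 * eTh + .c (-29) 100 + .c (-9) 100 * .x) * (.c 24 100 * eTh + .c (-29) 100 + .c (-9) 100 * .x))
  - .c 10000 1220 * ((.c 24 100 * eW + .c (-835) 10000) * (.c 24 100 * eW + .c (-835) 10000))

theorem phiC_mid {g : ℝ} (h1 : -5 ≤ g) (h2 : g ≤ 10) :
    0 ≤ PHI (24 / 100) (-29 / 100) (-9 / 100) (-835 / 10000) (-177 / 10000) (71 / 10000) (338 / 1000) (305 / 10000) (72 / 1000) g := by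
  have h := cert (e := eC) envOK_nil 64
    [(8, 8), (4, 224)] (by decide) (by decide +kernel)
    (x := g) (by norm_num; linarith) (by norm_num [tot]; linarith)
  simp only [eC, eW, eTh, ev_sub, ev_add, ev_mul, ev_c, ev_x, ev_r, ev_eR1, ev_eR2] at h
  push_cast at h
  unfold PHI
  refine h.trans (le_of_eq ?_)
  ring

theorem phiC (g : ℝ) : 0 ≤ PHI (24 / 100) (-29 / 100) (-9 / 100) (-835 / 10000) (-177 / 10000) (71 / 10000) (338 / 1000) (305 / 10000) (72 / 1000) g := by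
  rcases le_total g (-5) with h | h
  · refine phi_tail_left (by norm_num) (by norm_num) (by norm_num) (by norm_num) (by norm_num)
      (by norm_num) h ?_
    obtain ⟨s, hs, rfl⟩ : ∃ s : ℝ, 0 ≤ s ∧ g = -5 - s := ⟨-5 - g, by linarith, by ring⟩
    ring_nf
    positivity
  rcases le_total g 10 with h' | h'
  · exact phiC_mid h h'
  · refine phi_tail_right (by norm_num) (by norm_num) (by norm_num) (by norm_num) (by norm_num)
      (by norm_num) h' ?_
    obtain ⟨s, hs, rfl⟩ : ∃ s : ℝ, 0 ≤ s ∧ g = 10 + s := ⟨g - 10, by linarith, by ring⟩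
    ring_nf
    positivity

/-! ### range D -/

def eD : Pe := .c 245 1000 * eW + .c (-181) 10000 * .x + .c 632 100000 * (.x * .x) - .c 774 10000
  - .c 1000 1632 * ((.c 245 1000 * eTh + .c (-3126) 10000 + .c (-92) 1000 * .x) * (.c 245 1000 * eTh + .c (-3126) 10000 + .c (-92) 1000 * .x))
  - .c 10000 1024 * ((.c 245 1000 * eW + .c (-822) 10000) * (.c 245 1000 * eW + .c (-822) 10000))

theorem phiD_mid {g : ℝ} (h1 : -5 ≤ g) (h2 : g ≤ 10) :
    0 ≤ PHI (245 / 1000) (-3126 / 10000) (-92 / 1000) (-822 / 10000) (-181 / 10000) (632 / 100000) (408 / 1000) (256 / 10000) (774 / 10000) g := by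
  have h := cert (e := eD) envOK_nil 64
    [(8, 3), (4, 32), (2, 39), (4, 182), (2, 1)] (by decide) (by decide +kernel)
    (x := g) (by norm_num; linarith) (by norm_num [tot]; linarith)
  simp only [eD, eW, eTh, ev_sub, ev_add, ev_mul, ev_c, ev_x, ev_r, ev_eR1, ev_eR2] at h
  push_cast at h
  unfold PHI
  refine h.trans (le_of_eq ?_)
  ring

theorem phiD (g : ℝ) : 0 ≤ PHI (245 / 1000) (-3126 / 10000) (-92 / 1000) (-822 / 10000) (-181 / 10000) (632 / 100000) (408 / 1000) (256 / 10000) (774 / 10000) g := by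
  rcases le_total g (-5) with h | h
  · refine phi_tail_left (by norm_num) (by norm_num) (by norm_num) (by norm_num) (by norm_num)
      (by norm_num) h ?_
    obtain ⟨s, hs, rfl⟩ : ∃ s : ℝ, 0 ≤ s ∧ g = -5 - s := ⟨-5 - g, by linarith, by ring⟩
    ring_nf
    positivity
  rcases le_total g 10 with h' | h'
  · exact phiD_mid h h'
  · refine phi_tail_right (by norm_num) (by norm_num) (by norm_num) (by norm_num) (by norm_num)
      (by norm_num) h' ?_
    obtain ⟨s, hs, rfl⟩ : ∃ s : ℝ, 0 ≤ s ∧ g = 10 + s := ⟨g - 10, by linarith, by ring⟩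
    ring_nf
    positivity

end Vale.Agent.P254.SP979
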