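import Vale.Agent.P254.SP.H38.Forms
import Vale.Agent.P254.SP.H448.Uniq
import Vale.Agent.P254.H721.K8
import Vale.Agent.P254.SP.H979.Alg
import Vale.Agent.P254.SP.H979.Phi

/-!
P254, line (SP_0), row P3 (helper979): the numbers certify every column with `q ∈ [0,4]`.
-/

set_option autoImplicit false

namespace Vale.Agent.P254.SP979

open Real Vale.Agent.P254.SP Vale.Agent.P254.SP38

/-- the multipliers of the range, `D = q - 1` -/
noncomputable def mlt {N : ℕ} (i₁ : Fin N) (D mu sg l1 l2 l3 l4 l5 t0 k a6 b6 : ℝ) : Mult N where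
  c := 1 + mu * D
  σ := sg
  L1 := D * l1
  L2 := D * l2 + D ^ 2 * t0
  L3 := D * (l3 + k / 60) + D ^ 2 * t0
  L4 := D ^ 2 * l4
  L5 := D ^ 2 * l5
  L6 := a6 + b6 * D
  L7 := mu * D / 8
  T0 := D ^ 2 * t0
  Mt := 0
  Mr := 0
  B4 := 0
  γ := fun i _ => if i = i₁ then mu * D else 0

theorem h1 (P : F1) (g : ℝ) : P.r' g = H721.r1 g := by
  rw [SP448.r'_eq P, H721.r1_eq]
  rfl

theorem h0 (P : F1) (g : ℝ) : P.r g = H721.r g := by
  rw [SP448.r_eq P]
  rfl

theorem h2 (P : F1) (g : ℝ) : P.r'' g = H721.r2 g := by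
  rw [SP448.r''_eq P, H721.r2_eq]
  unfold H156.r2
  have e : H156.nu g = H721.mm g := rfl
  have e' : H156.r g = H721.r g := rfl
  rw [e, e', H721.vv_eq]
  linear_combination (-(H721.r g * H721.mm g)) * (H721.g_eq g)

/-- from the side conditions to the certificate of a column -/
theorem pw_of (P : F1) {N : ℕ} (w : Fin N → ℝ → ℝ → ℝ) (bw : Fin N → ℝ) (i₀ i₁ : Fin N)
    (hi : i₀ ≠ i₁) (hw : ∀ x y, w i₁ x y = SP151.ck P x y) (hbw : ∀ i, 0 ≤ bw i)
    (hb0 : 30 ≤ bw i₀) (hb1' : 4 ≤ bw i₁) {b₁ q D mu sg th' l1 l2 l3 l4 l5 t0 k a6 b6 Y Z C U E1 E3 : ℝ}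
    (hb1 : 10 ≤ b₁) (hD : D = q - 1) (hq : 0 ≤ q) (hc : 0 < 1 + mu * D) (hu : -1 < mu * D)
    (hsg : 0 < sg) (hth : 0 < th') (hl5 : 0 < l5) (hU : 0 ≤ U) (huU : mu * D ≤ U)
    (hY : 0 < Y) (hZ : 0 < Z) (hk : 1 < k) (hL6 : 0 ≤ a6 + b6 * D)
    (s1 : (1 + sg) * (1 + 1 / th') + U * (1 + 2 / th') ≤ (1 + mu * D) * 10)
    (s2 : a6 + b6 * D + (1 + mu * D) * (2 / 25) + (1 + sg) * (1 + th') / 16 + U * (1 + th' / 2) / 4
      + mu ^ 2 / (256 * l5) ≤ 1 + mu * D - (1 + 1 / sg) / 16)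
    (s3 : q * k ≤ 30 * (1 + mu * D) * (k - 1))
    (s4 : q * (Z + k / 120) ≤ 2 / 25 * (1 + mu * D))
    (s5 : Y ≤ -(1 + mu * D - (1 + 1 / sg) / 16) + 2 * (a6 + b6 * D) - k / 16 - D * l2 - D ^ 2 * t0
      - (1 + mu * D) * (1 / 1000))
    (hE1 : mu ^ 2 * ((3 + mu * D) / (6 + 4 * (mu * D))) ≤ E1)
    (hE3 : mu ^ 2 * q ≤ E3 * (16 * (1 + mu * D))) (hE3' : 0 < E3)
    (s6 : E1 + (l5 + t0) * q + k / 120 + E3 + (1 + mu * D) * (1 / 1000) ≤ C)
    (hphi : ∀ g, 0 ≤ PHI mu l1 l2 l3 l4 t0 Y Z C g) :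
    PW P q (2 / 25) b₁ (1 / 1000) w bw i₀ (mlt i₁ D mu sg l1 l2 l3 l4 l5 t0 k a6 b6) where
  c_pos := hc
  σ_pos := hsg
  L6_nonneg := hL6
  ker := by
    intro x y
    have e : ∑ i, (mlt i₁ D mu sg l1 l2 l3 l4 l5 t0 k a6 b6 : Mult N).γ i x * w i x y
        = mu * D * w i₁ x y := by
      rw [Finset.sum_eq_single i₁]
      · simp [mlt]
      · intro i _ h
        simp [mlt, h]
      · simp
    rw [e, hw]
    simp only [mlt]
    ring
  formA := by
    intro g f al k1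
    have hS0 := (P.r'_pos g).le
    have hS1 := (P.r'_lt g).le
    have h := coreA (c := 1 + mu * D) (si := sg) (v := 1 + sg) (th := th') (nu := 2 / 25) (b1 := 10)
      (mu := mu) (D := D) (l5 := l5) (L6 := a6 + b6 * D) (U := U) (S := P.r' g) (f := f) (al := al)
      (k1 := k1) hS0 hS1 rfl (by linarith) hth hl5 hU huU s1 s2
    have h' : 0 ≤ (1 + mu * D) * (b₁ - 10) * k1 ^ 2 :=
      mul_nonneg (mul_nonneg hc.le (by linarith)) (sq_nonneg _)
    unfold FormA
    simp only [mlt]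
    refine (add_nonneg h h').trans (le_of_eq ?_)
    ring
  formB := by
    intro g x y ze ka hq0
    have hsq : 15 / 2 * (P.r'' g) ^ 2 ≤ P.r' g * (1 / 2 - P.r' g) := by
      rw [h1 P, h2 P]
      have := H721.key8 g
      have := sq_nonneg (H721.r2 g)
      linarith
    have hp : 0 ≤ mu * w0 P g + l4 * g + t0 * g ^ 2 - C
        - (mu * SP38.th P g + l1 + l2 * g) ^ 2 / (4 * Y) - (mu * w0 P g + l3) ^ 2 / (4 * Z) := by
      have := hphi g
      unfold PHI at this
      unfold w0 SP38.th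
      rw [h0 P, h1 P, h2 P]
      exact this
    have hlg : (1 + mu * D) * Real.log (1 + mu * D) - (1 + mu * D) + 1 ≤ D ^ 2 * E1 := by
      refine (clog hu).trans ?_
      have := mul_le_mul_of_nonneg_left hE1 (sq_nonneg D)
      calc (mu * D) ^ 2 * ((3 + mu * D) / (6 + 4 * (mu * D)))
          = D ^ 2 * (mu ^ 2 * ((3 + mu * D) / (6 + 4 * (mu * D)))) := by ring
        _ ≤ _ := this
    have hmn : min 1 ((q - 1) ^ 2) ≤ D ^ 2 := by rw [hD]; exact min_le_right _ _
    have hsum : ∑ i, (mlt i₁ D mu sg l1 l2 l3 l4 l5 t0 k a6 b6 : Mult N).γ i g * ka i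
        = mu * D * ka i₁ := by
      rw [Finset.sum_eq_single i₁]
      · simp [mlt]
      · intro i _ h
        simp [mlt, h]
      · simp
    rcases hq.eq_or_lt with hq' | hq'
    · -- the column with `q = 0`
      obtain ⟨hz, hka⟩ := hq0 hq'.symm
      have h := coreB (D := D) (mu := mu) (l1 := l1) (l2 := l2) (l3 := l3) (l4 := l4) (l5 := l5)
        (t0 := t0) (k := k) (Y := Y) (Z := Z) (C := C) (c := 1 + mu * D) (q := q) (nu := 2 / 25)
        (qi := (Z + k / 120) * 25 / (2 * (1 + mu * D))) (rho := 1 / 1000)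
        (P0 := 1 + mu * D - (1 + 1 / sg) / 16) (L6 := a6 + b6 * D) (w := w0 P g) (th := SP38.th P g)
        (S := P.r' g) (r2 := P.r'' g) (g := g) (x := x) (y := y) (ze := 0) (k0 := 0) (k1 := 0)
        (lg := (1 + mu * D) * Real.log (1 + mu * D) - (1 + mu * D) + 1) (E1 := E1)
        (B2 := k / (k - 1)) (B3 := mu ^ 2 / (4 * E3) + 1) (mn := min 1 ((q - 1) ^ 2)) hY hZ hk hsq hp
        (by rw [div_mul_cancel₀ _ (by linarith : k - 1 ≠ 0)]) (by positivity)
        (by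
          have : (1 + mu * D) ≠ 0 := hc.ne'
          apply le_of_eq
          field_simp) s5
        (by
          have : mu ^ 2 / (4 * (mu ^ 2 / (4 * E3) + 1)) ≤ E3 := by
            rw [div_le_iff₀ (by positivity)]
            have : E3 * (4 * (mu ^ 2 / (4 * E3) + 1)) = mu ^ 2 + 4 * E3 := by
              field_simp
            rw [this]
            linarith
          linarith) hlg hmn (by positivity)
      unfold FormB
      rw [hsum]
      have hs2 : ∑ i, (mlt i₁ D mu sg l1 l2 l3 l4 l5 t0 k a6 b6 : Mult N).c * bw i * q⁻¹ * ka i ^ 2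
          = 0 := by
        apply Finset.sum_eq_zero
        intro i _
        rw [hka i]
        ring
      rw [hs2, hz, hka i₀, hka i₁, ← hD]
      simp only [mlt]
      rw [← hD] at h
      refine h.trans (le_of_eq ?_)
      ring
    · have hqi : 0 < q⁻¹ := inv_pos.2 hq'
      have hs2 : (1 + mu * D) * 30 * q⁻¹ * ka i₀ ^ 2 + (1 + mu * D) * 4 * q⁻¹ * ka i₁ ^ 2
          ≤ ∑ i, (mlt i₁ D mu sg l1 l2 l3 l4 l5 t0 k a6 b6 : Mult N).c * bw i * q⁻¹ * ka i ^ 2 := by
        have hnn : ∀ i, 0 ≤ (1 + mu * D) * bw i * q⁻¹ * ka i ^ 2 := fun i =>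
          mul_nonneg (mul_nonneg (mul_nonneg hc.le (hbw i)) hqi.le) (sq_nonneg _)
        have e1 : ∑ i ∈ ({i₀, i₁} : Finset (Fin N)), (1 + mu * D) * bw i * q⁻¹ * ka i ^ 2
            ≤ ∑ i, (1 + mu * D) * bw i * q⁻¹ * ka i ^ 2 :=
          Finset.sum_le_univ_sum_of_nonneg hnn
        rw [Finset.sum_pair hi] at e1
        have e2 : (1 + mu * D) * 30 * q⁻¹ * ka i₀ ^ 2 ≤ (1 + mu * D) * bw i₀ * q⁻¹ * ka i₀ ^ 2 := by
          gcongr
        have e3 : (1 + mu * D) * 4 * q⁻¹ * ka i₁ ^ 2 ≤ (1 + mu * D) * bw i₁ * q⁻¹ * ka i₁ ^ 2 := by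
          gcongr
        simp only [mlt]
        linarith
      have h := coreB (D := D) (mu := mu) (l1 := l1) (l2 := l2) (l3 := l3) (l4 := l4) (l5 := l5)
        (t0 := t0) (k := k) (Y := Y) (Z := Z) (C := C) (c := 1 + mu * D) (q := q) (nu := 2 / 25)
        (qi := q⁻¹) (rho := 1 / 1000)
        (P0 := 1 + mu * D - (1 + 1 / sg) / 16) (L6 := a6 + b6 * D) (w := w0 P g) (th := SP38.th P g)
        (S := P.r' g) (r2 := P.r'' g) (g := g) (x := x) (y := y) (ze := ze) (k0 := ka i₀)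
        (k1 := ka i₁)
        (lg := (1 + mu * D) * Real.log (1 + mu * D) - (1 + mu * D) + 1) (E1 := E1)
        (B2 := (1 + mu * D) * 30 * q⁻¹) (B3 := (1 + mu * D) * 4 * q⁻¹)
        (mn := min 1 ((q - 1) ^ 2)) hY hZ hk hsq hp
        (by
          have := mul_le_mul_of_nonneg_right s3 hqi.le
          have e : q * k * q⁻¹ = k := by field_simp
          rw [e] at this
          linarith) (by positivity)
        (by
          have := mul_le_mul_of_nonneg_right s4 hqi.le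
          have e : q * (Z + k / 120) * q⁻¹ = Z + k / 120 := by field_simp
          rw [e] at this
          linarith) s5
        (by
          have : mu ^ 2 / (4 * ((1 + mu * D) * 4 * q⁻¹)) ≤ E3 := by
            rw [div_le_iff₀ (by positivity)]
            have := mul_le_mul_of_nonneg_right hE3 hqi.le
            have e : mu ^ 2 * q * q⁻¹ = mu ^ 2 := by field_simp
            rw [e] at this
            linarith
          linarith) hlg hmn (by positivity)
      unfold FormB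
      rw [hsum, ← hD]
      rw [← hD] at h
      refine (add_nonneg h (sub_nonneg.2 hs2)).trans (le_of_eq ?_)
      simp only [mlt]
      ring

end Vale.Agent.P254.SP979
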