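import Vale.Agent.P254.SP.H979.Small

/-!
P254, line (SP_0), row P3 (helper979): every column with `q ∈ [0,4]` is certified.
-/

set_option autoImplicit false

namespace Vale.Agent.P254.SP979

open Real Vale.Agent.P254.SP Vale.Agent.P254.SP38

/-- `q - 1 ∈ [-1, 0]` -/
theorem rngA (P : F1) {N : ℕ} (w : Fin N → ℝ → ℝ → ℝ) (bw : Fin N → ℝ) (i₀ i₁ : Fin N)
    (hi : i₀ ≠ i₁) (hw : ∀ x y, w i₁ x y = SP151.ck P x y) (hbw : ∀ i, 0 ≤ bw i)
    (hb0 : 30 ≤ bw i₀) (hb1' : 4 ≤ bw i₁) {b₁ q : ℝ} (hb1 : 10 ≤ b₁)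
    (hq0 : 0 ≤ q) (hq1 : q ≤ 1) : ∃ m : Mult N, PW P q (2 / 25) b₁ (1 / 1000) w bw i₀ m := by
  obtain ⟨D, hD⟩ : ∃ D, D = q - 1 := ⟨_, rfl⟩
  have hd0 : (-1 : ℝ) ≤ D := by rw [hD]; linarith
  have hd1 : D ≤ 0 := by rw [hD]; linarith
  have hdd : 0 ≤ (D - (-1)) * (0 - D) := mul_nonneg (by linarith) (by linarith)
  have hq : q = D + 1 := by rw [hD]; ring
  refine ⟨_, pw_of P w bw i₀ i₁ hi hw hbw hb0 hb1' (mu := 14 / 100) (sg := 3 / 5) (th' := 23 / 100)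
    (l1 := -159 / 1000) (l2 := -525 / 10000) (l3 := -517 / 10000) (l4 := -101 / 10000) (l5 := 28 / 10000)
    (t0 := 65 / 10000) (k := 1035 / 1000) (a6 := 602 / 1000) (b6 := 1288 / 10000) (Y := 128 / 1000)
    (Z := 71 / 1000) (C := 30 / 1000) (U := 0) (E1 := 9800 / 1000000 - 505 / 1000000 * D)
    (E3 := 1225 / 1000000) hb1 hD (by linarith) (by linarith) (by linarith) (by norm_num) (by norm_num)
    (by norm_num) (by linarith) (by linarith) (by norm_num) (by norm_num) (by norm_num)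
    (by linarith) ?_ ?_ ?_ ?_ ?_ ?_ ?_ (by norm_num) ?_ phiA⟩
  · norm_num
    linarith
  · norm_num
    linarith
  · rw [hq]
    norm_num
    linarith
  · rw [hq]
    norm_num
    linarith
  · norm_num
    nlinarith [hdd]
  · rw [← mul_div_assoc, div_le_iff₀ (by linarith)]
    nlinarith [hdd]
  · rw [hq]
    norm_num
    linarith
  · rw [hq]
    norm_num
    linarith

/-- `q - 1 ∈ [0, 1]` -/
theorem rngB (P : F1) {N : ℕ} (w : Fin N → ℝ → ℝ → ℝ) (bw : Fin N → ℝ) (i₀ i₁ : Fin N)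
    (hi : i₀ ≠ i₁) (hw : ∀ x y, w i₁ x y = SP151.ck P x y) (hbw : ∀ i, 0 ≤ bw i)
    (hb0 : 30 ≤ bw i₀) (hb1' : 4 ≤ bw i₁) {b₁ q : ℝ} (hb1 : 10 ≤ b₁)
    (hq0 : 1 ≤ q) (hq1 : q ≤ 2) : ∃ m : Mult N, PW P q (2 / 25) b₁ (1 / 1000) w bw i₀ m := by
  obtain ⟨D, hD⟩ : ∃ D, D = q - 1 := ⟨_, rfl⟩
  have hd0 : (0 : ℝ) ≤ D := by rw [hD]; linarith
  have hd1 : D ≤ 1 := by rw [hD]; linarith
  have hdd : 0 ≤ (D - (0)) * (1 - D) := mul_nonneg (by linarith) (by linarith)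
  have hq : q = D + 1 := by rw [hD]; ring
  refine ⟨_, pw_of P w bw i₀ i₁ hi hw hbw hb0 hb1' (mu := 22 / 100) (sg := 3 / 5) (th' := 2 / 10)
    (l1 := -249 / 1000) (l2 := -823 / 10000) (l3 := -81 / 1000) (l4 := -16 / 1000) (l5 := 32 / 10000)
    (t0 := 8 / 1000) (k := 1058 / 1000) (a6 := 574 / 1000) (b6 := 1419 / 10000) (Y := 245 / 1000)
    (Z := 398 / 10000) (C := 61 / 1000) (U := 22 / 100 * D) (E1 := 24200 / 1000000 - 1540 / 1000000 * D)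
    (E3 := 4960 / 1000000) hb1 hD (by linarith) (by linarith) (by linarith) (by norm_num) (by norm_num)
    (by norm_num) (by linarith) (by linarith) (by norm_num) (by norm_num) (by norm_num)
    (by linarith) ?_ ?_ ?_ ?_ ?_ ?_ ?_ (by norm_num) ?_ phiB⟩
  · norm_num
    linarith
  · norm_num
    linarith
  · rw [hq]
    norm_num
    linarith
  · rw [hq]
    norm_num
    linarith
  · norm_num
    nlinarith [hdd]
  · rw [← mul_div_assoc, div_le_iff₀ (by linarith)]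
    nlinarith [hdd]
  · rw [hq]
    norm_num
    linarith
  · rw [hq]
    norm_num
    linarith

/-- `q - 1 ∈ [1, 2]` -/
theorem rngC (P : F1) {N : ℕ} (w : Fin N → ℝ → ℝ → ℝ) (bw : Fin N → ℝ) (i₀ i₁ : Fin N)
    (hi : i₀ ≠ i₁) (hw : ∀ x y, w i₁ x y = SP151.ck P x y) (hbw : ∀ i, 0 ≤ bw i)
    (hb0 : 30 ≤ bw i₀) (hb1' : 4 ≤ bw i₁) {b₁ q : ℝ} (hb1 : 10 ≤ b₁)
    (hq0 : 2 ≤ q) (hq1 : q ≤ 3) : ∃ m : Mult N, PW P q (2 / 25) b₁ (1 / 1000) w bw i₀ m := by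
  obtain ⟨D, hD⟩ : ∃ D, D = q - 1 := ⟨_, rfl⟩
  have hd0 : (1 : ℝ) ≤ D := by rw [hD]; linarith
  have hd1 : D ≤ 2 := by rw [hD]; linarith
  have hdd : 0 ≤ (D - (1)) * (2 - D) := mul_nonneg (by linarith) (by linarith)
  have hq : q = D + 1 := by rw [hD]; ring
  refine ⟨_, pw_of P w bw i₀ i₁ hi hw hbw hb0 hb1' (mu := 24 / 100) (sg := 3 / 5) (th' := 202 / 1000)
    (l1 := -29 / 100) (l2 := -9 / 100) (l3 := -835 / 10000) (l4 := -177 / 10000) (l5 := 255 / 100000)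
    (t0 := 71 / 10000) (k := 1073 / 1000) (a6 := 5445 / 10000) (b6 := 1547 / 10000) (Y := 338 / 1000)
    (Z := 305 / 10000) (C := 72 / 1000) (U := 24 / 100 * D) (E1 := 28320 / 1000000 - 1505 / 1000000 * D)
    (E3 := 7300 / 1000000) hb1 hD (by linarith) (by linarith) (by linarith) (by norm_num) (by norm_num)
    (by norm_num) (by linarith) (by linarith) (by norm_num) (by norm_num) (by norm_num)
    (by linarith) ?_ ?_ ?_ ?_ ?_ ?_ ?_ (by norm_num) ?_ phiC⟩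
  · norm_num
    linarith
  · norm_num
    linarith
  · rw [hq]
    norm_num
    linarith
  · rw [hq]
    norm_num
    linarith
  · norm_num
    nlinarith [hdd]
  · rw [← mul_div_assoc, div_le_iff₀ (by linarith)]
    nlinarith [hdd]
  · rw [hq]
    norm_num
    linarith
  · rw [hq]
    norm_num
    linarith

/-- `q - 1 ∈ [2, 3]` -/
theorem rngD (P : F1) {N : ℕ} (w : Fin N → ℝ → ℝ → ℝ) (bw : Fin N → ℝ) (i₀ i₁ : Fin N)
    (hi : i₀ ≠ i₁) (hw : ∀ x y, w i₁ x y = SP151.ck P x y) (hbw : ∀ i, 0 ≤ bw i)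
    (hb0 : 30 ≤ bw i₀) (hb1' : 4 ≤ bw i₁) {b₁ q : ℝ} (hb1 : 10 ≤ b₁)
    (hq0 : 3 ≤ q) (hq1 : q ≤ 4) : ∃ m : Mult N, PW P q (2 / 25) b₁ (1 / 1000) w bw i₀ m := by
  obtain ⟨D, hD⟩ : ∃ D, D = q - 1 := ⟨_, rfl⟩
  have hd0 : (2 : ℝ) ≤ D := by rw [hD]; linarith
  have hd1 : D ≤ 3 := by rw [hD]; linarith
  have hdd : 0 ≤ (D - (2)) * (3 - D) := mul_nonneg (by linarith) (by linarith)
  have hq : q = D + 1 := by rw [hD]; ring
  refine ⟨_, pw_of P w bw i₀ i₁ hi hw hbw hb0 hb1' (mu := 245 / 1000) (sg := 59 / 100) (th' := 205 / 1000)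
    (l1 := -3126 / 10000) (l2 := -92 / 1000) (l3 := -822 / 10000) (l4 := -181 / 10000) (l5 := 186 / 100000)
    (t0 := 632 / 100000) (k := 1084 / 1000) (a6 := 505 / 1000) (b6 := 1578 / 10000) (Y := 408 / 1000)
    (Z := 256 / 10000) (C := 774 / 10000) (U := 245 / 1000 * D) (E1 := 28804 / 1000000 - 1242 / 1000000 * D)
    (E3 := 8650 / 1000000) hb1 hD (by linarith) (by linarith) (by linarith) (by norm_num) (by norm_num)
    (by norm_num) (by linarith) (by linarith) (by norm_num) (by norm_num) (by norm_num)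
    (by linarith) ?_ ?_ ?_ ?_ ?_ ?_ ?_ (by norm_num) ?_ phiD⟩
  · norm_num
    linarith
  · norm_num
    linarith
  · rw [hq]
    norm_num
    linarith
  · rw [hq]
    norm_num
    linarith
  · norm_num
    nlinarith [hdd]
  · rw [← mul_div_assoc, div_le_iff₀ (by linarith)]
    nlinarith [hdd]
  · rw [hq]
    norm_num
    linarith
  · rw [hq]
    norm_num
    linarith

/-- **P3**: every column with `0 ≤ q ≤ 4` is certified, for all budgets `b₁ ≥ 10`, `bw i₀ ≥ 30`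
(kernel of `r'`), `bw i₁ ≥ 4` (kernel `ck`) -/
theorem small (P : F1) {N : ℕ} (w : Fin N → ℝ → ℝ → ℝ) (bw : Fin N → ℝ) (i₀ i₁ : Fin N)
    (hi : i₀ ≠ i₁) (hw : ∀ x y, w i₁ x y = SP151.ck P x y) (hbw : ∀ i, 0 ≤ bw i)
    (hb0 : 30 ≤ bw i₀) (hb1' : 4 ≤ bw i₁) {b₁ q : ℝ} (hb1 : 10 ≤ b₁)
    (hq0 : 0 ≤ q) (hq1 : q ≤ 4) : ∃ m : Mult N, PW P q (2 / 25) b₁ (1 / 1000) w bw i₀ m := by
  rcases le_total q 1 with h | h
  · exact rngA P w bw i₀ i₁ hi hw hbw hb0 hb1' hb1 hq0 h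
  rcases le_total q 2 with h' | h'
  · exact rngB P w bw i₀ i₁ hi hw hbw hb0 hb1' hb1 h h'
  rcases le_total q 3 with h'' | h''
  · exact rngC P w bw i₀ i₁ hi hw hbw hb0 hb1' hb1 h' h''
  · exact rngD P w bw i₀ i₁ hi hw hbw hb0 hb1' hb1 h'' hq1

end Vale.Agent.P254.SP979
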