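import Vale.Agent.P254.H721.Env
import Vale.Agent.P254.SP.H425.Scal
import Vale.Agent.P254.SP.H979.Small

/-!
P254, line (SP_0), row P4 (helper979): the two one-variable inequalities of the range `q ∈ [7,12]`
(mode 1, `c = 257/100`).
-/

set_option autoImplicit false

namespace Vale.Agent.P254.SP979

open Real Vale.Agent.P254 H721 H721.Cert SP425

/-- the one-variable function of mode 1, collected -/
noncomputable def PH (A L4 T0 Mt G2 G1 C D1 L1 l2 iY l3 E2 z g S w θ : ℝ) : ℝ :=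
  A * w + L4 * g + T0 * g ^ 2 + Mt * (θ * g) - G2 * S ^ 2 - G1 * S - C
    - (D1 * θ + L1 + l2 * g) ^ 2 * iY - (D1 * w + l3 - E2 * S ^ 2) ^ 2 * z

theorem sq_le_of {a b : ℝ} (h1 : -b ≤ a) (h2 : a ≤ b) : a ^ 2 ≤ b ^ 2 := by
  nlinarith

/-- left tail -/
theorem ph_left {A L4 T0 Mt G2 G1 C D1 L1 l2 iY l3 E2 z b g S w θ : ℝ} (hA : 0 ≤ A)
    (hG2 : 0 ≤ G2) (hG1 : 0 ≤ G1) (hD : 0 ≤ D1) (hE : 0 ≤ E2) (hz : 0 ≤ z) (hiY : 0 ≤ iY)
    (hS0 : 0 ≤ S) (hS1 : S * 26 ≤ 1) (hw0 : 0 ≤ w) (hw1 : w ≤ 1 / 20) (hθ0 : 0 ≤ θ)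
    (hθ1 : θ ≤ 21 / 100) (hb1 : -b ≤ l3 - E2 / 676) (hb2 : D1 / 20 + l3 ≤ b)
    (H0 : 0 ≤ L4 * g + T0 * g ^ 2 - G2 / 676 - G1 / 26 - C - (L1 + l2 * g) ^ 2 * iY - b ^ 2 * z)
    (H1 : 0 ≤ L4 * g + T0 * g ^ 2 + Mt * (21 / 100 * g) - G2 / 676 - G1 / 26 - C
      - (D1 * (21 / 100) + L1 + l2 * g) ^ 2 * iY - b ^ 2 * z) :
    0 ≤ PH A L4 T0 Mt G2 G1 C D1 L1 l2 iY l3 E2 z g S w θ := by
  have s2 : S ^ 2 ≤ 1 / 676 := by nlinarith
  have s0 : 0 ≤ S ^ 2 := sq_nonneg S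
  have t1 : G2 * S ^ 2 ≤ G2 * (1 / 676) := mul_le_mul_of_nonneg_left s2 hG2
  have t2 : G1 * S ≤ G1 * (1 / 26) := mul_le_mul_of_nonneg_left (by linarith) hG1
  have t3 : 0 ≤ A * w := mul_nonneg hA hw0
  have u1 : 0 ≤ D1 * w := mul_nonneg hD hw0
  have u2 : D1 * w ≤ D1 * (1 / 20) := mul_le_mul_of_nonneg_left hw1 hD
  have u3 : 0 ≤ E2 * S ^ 2 := mul_nonneg hE s0
  have u4 : E2 * S ^ 2 ≤ E2 * (1 / 676) := mul_le_mul_of_nonneg_left s2 hE
  have k1 : (D1 * w + l3 - E2 * S ^ 2) ^ 2 ≤ b ^ 2 := sq_le_of (by linarith) (by linarith)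
  have k2 := mul_le_mul_of_nonneg_right k1 hz
  obtain ⟨t, ht⟩ : ∃ t, t = θ * (100 / 21) := ⟨_, rfl⟩
  have ht0 : 0 ≤ t := by rw [ht]; positivity
  have ht1 : t ≤ 1 := by rw [ht]; linarith
  have hθ : θ = t * (21 / 100) := by rw [ht]; ring
  have c0 := mul_nonneg (sub_nonneg.2 ht1) H0
  have c1 := mul_nonneg ht0 H1
  have c2 : 0 ≤ t * (1 - t) * (D1 * (21 / 100)) ^ 2 * iY :=
    mul_nonneg (mul_nonneg (mul_nonneg ht0 (sub_nonneg.2 ht1)) (sq_nonneg _)) hiY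
  unfold PH
  rw [hθ]
  linarith

/-- right tail -/
theorem ph_right {A L4 T0 Mt G2 G1 C D1 L1 l2 iY l3 E2 z b g S w θ lo hi : ℝ} (hA : 0 ≤ A)
    (hg : 0 ≤ g) (hM : 0 ≤ Mt)
    (hG2 : 0 ≤ G2) (hG1 : 0 ≤ G1) (hD : 0 ≤ D1) (hE : 0 ≤ E2) (hz : 0 ≤ z) (hiY : 0 ≤ iY)
    (hS0 : 479 / 1000 ≤ S) (hS1 : S ≤ 1 / 2) (hw0 : 479 / 1000 ≤ w) (hw1 : w ≤ 501 / 1000)
    (hθ0 : lo ≤ θ) (hθ1 : θ ≤ hi) (h0 : 0 ≤ D1 * lo + L1 + l2 * g)
    (hb1 : -b ≤ D1 * (479 / 1000) + l3 - E2 / 4)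
    (hb2 : D1 * (501 / 1000) + l3 - E2 * (229 / 1000) ≤ b)
    (H : 0 ≤ A * (479 / 1000) + L4 * g + T0 * g ^ 2 + Mt * (lo * g) - G2 / 4 - G1 / 2 - C
      - (D1 * hi + L1 + l2 * g) ^ 2 * iY - b ^ 2 * z) :
    0 ≤ PH A L4 T0 Mt G2 G1 C D1 L1 l2 iY l3 E2 z g S w θ := by
  have s2 : S ^ 2 ≤ 1 / 4 := by nlinarith
  have s0 : 229 / 1000 ≤ S ^ 2 := by nlinarith
  have t1 : G2 * S ^ 2 ≤ G2 * (1 / 4) := mul_le_mul_of_nonneg_left s2 hG2
  have t2 : G1 * S ≤ G1 * (1 / 2) := mul_le_mul_of_nonneg_left hS1 hG1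
  have t3 : A * (479 / 1000) ≤ A * w := mul_le_mul_of_nonneg_left hw0 hA
  have t4 : Mt * (lo * g) ≤ Mt * (θ * g) :=
    mul_le_mul_of_nonneg_left (mul_le_mul_of_nonneg_right hθ0 hg) hM
  have u1 : D1 * (479 / 1000) ≤ D1 * w := mul_le_mul_of_nonneg_left hw0 hD
  have u2 : D1 * w ≤ D1 * (501 / 1000) := mul_le_mul_of_nonneg_left hw1 hD
  have u3 : E2 * (229 / 1000) ≤ E2 * S ^ 2 := mul_le_mul_of_nonneg_left s0 hE
  have u4 : E2 * S ^ 2 ≤ E2 * (1 / 4) := mul_le_mul_of_nonneg_left s2 hE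
  have k1 : (D1 * w + l3 - E2 * S ^ 2) ^ 2 ≤ b ^ 2 := sq_le_of (by linarith) (by linarith)
  have k2 := mul_le_mul_of_nonneg_right k1 hz
  have v1 : D1 * lo ≤ D1 * θ := mul_le_mul_of_nonneg_left hθ0 hD
  have v2 : D1 * θ ≤ D1 * hi := mul_le_mul_of_nonneg_left hθ1 hD
  have k3 : (D1 * θ + L1 + l2 * g) ^ 2 ≤ (D1 * hi + L1 + l2 * g) ^ 2 :=
    pow_le_pow_left₀ (by linarith) (by linarith) 2
  have k4 := mul_le_mul_of_nonneg_right k3 hiY
  unfold PH
  linarith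

def e7 : Pe := .c 69295561 10000000 * H721.Cert.eW + .c (-39) 50 * .x + .c 3 100 * (.x * .x)
  + .c 3557777 10000000 * (H721.Cert.eTh * .x) - .c 53863089 10000000 * (eR1 * eR1) - .c 93233 1000000 * eR1 - .c 6063341 4000000
  - .c 10 29 * ((.c 12142223 10000000 * H721.Cert.eTh + .c (-161) 100 + .c (-63) 250 * .x)
    * (.c 12142223 10000000 * H721.Cert.eTh + .c (-161) 100 + .c (-63) 250 * .x))
  - .c 1243 100 * ((.c 12142223 10000000 * H721.Cert.eW + .c (-249) 1000 - .c 7694727 10000000 * (eR1 * eR1))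
    * (.c 12142223 10000000 * H721.Cert.eW + .c (-249) 1000 - .c 7694727 10000000 * (eR1 * eR1)))

theorem ph7_mid {g : ℝ} (h1 : -6 ≤ g) (h2 : g ≤ 9) :
    0 ≤ PH (69295561 / 10000000) (-39 / 50) (3 / 100) (3557777 / 10000000) (53863089 / 10000000) (93233 / 1000000) (6063341 / 4000000) (12142223 / 10000000) (-161 / 100) (-63 / 250) (10 / 29) (-249 / 1000) (7694727 / 10000000) (1243 / 100)
      g (r1 g) (wf g) (H721.th g) := by
  have h := cert2 (e := e7) envOK_nil 0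
    [(8, 12), (4, 70), (2, 68), (4, 89), (8, 11), (4, 1)] (by decide) (by decide +kernel)
    (x := g) (by norm_num; linarith) (by norm_num [tot]; linarith)
  simp only [e7, ev_sub, ev_add, ev_mul, ev_c, ev_x, ev_eW, ev_eTh, ev_eR1] at h
  push_cast at h
  unfold PH
  refine h.trans (le_of_eq ?_)
  ring

theorem ph7 (g : ℝ) :
    0 ≤ PH (69295561 / 10000000) (-39 / 50) (3 / 100) (3557777 / 10000000) (53863089 / 10000000) (93233 / 1000000) (6063341 / 4000000) (12142223 / 10000000) (-161 / 100) (-63 / 250) (10 / 29) (-249 / 1000) (7694727 / 10000000) (1243 / 100)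
      g (r1 g) (wf g) (H721.th g) := by
  rcases le_total g (-6) with h | h
  · have hg : g ≤ -5 := by linarith
    refine ph_left (b := 26 / 100) (by norm_num) (by norm_num) (by norm_num) (by norm_num)
      (by norm_num) (by norm_num) (by norm_num) (r1_pos g).le (r1_left hg) (wf_pos g).le (wf_left hg)
      (th_pos g).le (H721.th_left hg) (by norm_num) (by norm_num) ?_ ?_
    · obtain ⟨s, hs, rfl⟩ : ∃ s : ℝ, 0 ≤ s ∧ g = -6 - s := ⟨-6 - g, by linarith, by ring⟩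
      ring_nf
      positivity
    · obtain ⟨s, hs, rfl⟩ : ∃ s : ℝ, 0 ≤ s ∧ g = -6 - s := ⟨-6 - g, by linarith, by ring⟩
      ring_nf
      positivity
  rcases le_total g 9 with h' | h'
  · exact ph7_mid h h'
  · obtain ⟨s, hs, rfl⟩ : ∃ s : ℝ, 0 ≤ s ∧ g = 9 + s := ⟨g - 9, by linarith, by ring⟩
    refine ph_right (b := 19 / 100) (by norm_num) (by linarith) (by norm_num) (by norm_num)
      (by norm_num) (by norm_num) (by norm_num) (by norm_num) (by norm_num) (H721.r1_right h')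
      (r1_lt _).le (wf_right_ge h') (wf_right_le h') (th_right_ge h') (th_right_le h') ?_
      (by norm_num) (by norm_num) ?_
    · ring_nf
      positivity
    · ring_nf
      positivity

def e12 : Pe := .c 32501669 2500000 * H721.Cert.eW + .c (-39) 50 * .x + .c 3 100 * (.x * .x)
  + .c 3557777 10000000 * (H721.Cert.eTh * .x) - .c 23084181 2500000 * (eR1 * eR1) - .c 39957 250000 * eR1 - .c 40500949 16000000
  - .c 10 29 * ((.c 12142223 10000000 * H721.Cert.eTh + .c (-161) 100 + .c (-63) 250 * .x)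
    * (.c 12142223 10000000 * H721.Cert.eTh + .c (-161) 100 + .c (-63) 250 * .x))
  - .c 127 4 * ((.c 12142223 10000000 * H721.Cert.eW + .c (-249) 1000 - .c 7694727 10000000 * (eR1 * eR1))
    * (.c 12142223 10000000 * H721.Cert.eW + .c (-249) 1000 - .c 7694727 10000000 * (eR1 * eR1)))

theorem ph12_mid {g : ℝ} (h1 : -6 ≤ g) (h2 : g ≤ 9) :
    0 ≤ PH (32501669 / 2500000) (-39 / 50) (3 / 100) (3557777 / 10000000) (23084181 / 2500000) (39957 / 250000) (40500949 / 16000000) (12142223 / 10000000) (-161 / 100) (-63 / 250) (10 / 29) (-249 / 1000) (7694727 / 10000000) (127 / 4)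
      g (r1 g) (wf g) (H721.th g) := by
  have h := cert2 (e := e12) envOK_nil 0
    [(2, 4), (4, 13), (2, 100), (4, 43), (2, 33), (4, 115), (2, 1)] (by decide) (by decide +kernel)
    (x := g) (by norm_num; linarith) (by norm_num [tot]; linarith)
  simp only [e12, ev_sub, ev_add, ev_mul, ev_c, ev_x, ev_eW, ev_eTh, ev_eR1] at h
  push_cast at h
  unfold PH
  refine h.trans (le_of_eq ?_)
  ring

theorem ph12 (g : ℝ) :
    0 ≤ PH (32501669 / 2500000) (-39 / 50) (3 / 100) (3557777 / 10000000) (23084181 / 2500000) (39957 / 250000) (40500949 / 16000000) (12142223 / 10000000) (-161 / 100) (-63 / 250) (10 / 29) (-249 / 1000) (7694727 / 10000000) (127 / 4)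
      g (r1 g) (wf g) (H721.th g) := by
  rcases le_total g (-6) with h | h
  · have hg : g ≤ -5 := by linarith
    refine ph_left (b := 26 / 100) (by norm_num) (by norm_num) (by norm_num) (by norm_num)
      (by norm_num) (by norm_num) (by norm_num) (r1_pos g).le (r1_left hg) (wf_pos g).le (wf_left hg)
      (th_pos g).le (H721.th_left hg) (by norm_num) (by norm_num) ?_ ?_
    · obtain ⟨s, hs, rfl⟩ : ∃ s : ℝ, 0 ≤ s ∧ g = -6 - s := ⟨-6 - g, by linarith, by ring⟩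
      ring_nf
      positivity
    · obtain ⟨s, hs, rfl⟩ : ∃ s : ℝ, 0 ≤ s ∧ g = -6 - s := ⟨-6 - g, by linarith, by ring⟩
      ring_nf
      positivity
  rcases le_total g 9 with h' | h'
  · exact ph12_mid h h'
  · obtain ⟨s, hs, rfl⟩ : ∃ s : ℝ, 0 ≤ s ∧ g = 9 + s := ⟨g - 9, by linarith, by ring⟩
    refine ph_right (b := 19 / 100) (by norm_num) (by linarith) (by norm_num) (by norm_num)
      (by norm_num) (by norm_num) (by norm_num) (by norm_num) (by norm_num) (H721.r1_right h')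
      (r1_lt _).le (wf_right_ge h') (wf_right_le h') (th_right_ge h') (th_right_le h') ?_
      (by norm_num) (by norm_num) ?_
    · ring_nf
      positivity
    · ring_nf
      positivity

end Vale.Agent.P254.SP979
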