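import Vale.Agent.P254.SP.H151.Glue
import Vale.Agent.P254.SP.H425.One
import Vale.Agent.P254.SP.H979.Phi712

/-!
P254, line (SP_0), row P4 (helper979): every column with `q ∈ [7,12]` is certified in mode 1.
-/

set_option autoImplicit false

namespace Vale.Agent.P254.SP979

open Real Vale.Agent.P254 Vale.Agent.P254.SP Vale.Agent.P254.SP38 H721 SP425

theorem log257 : (257 / 100 : ℝ) * Real.log (257 / 100) - 257 / 100 + 1 ≤ 86 / 100 := by
  have he := Real.exp_one_gt_d9
  have h1 : Real.log (257 / 100) ≤ 257 / 100 / Real.exp 1 := by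
    have h := Real.log_le_sub_one_of_pos (x := 257 / 100 / Real.exp 1) (by positivity)
    rw [Real.log_div (by norm_num) (Real.exp_pos 1).ne', Real.log_exp] at h
    linarith
  have h2 : 257 / 100 / Real.exp 1 ≤ 257 / 100 / 2.7182818283 :=
    div_le_div_of_nonneg_left (by norm_num) (by norm_num) he.le
  have h3 : (257 / 100 : ℝ) / 2.7182818283 ≤ 9455 / 10000 := by norm_num
  linarith

theorem br_w (P : F1) (g : ℝ) : w0 P g = wf g := by
  unfold w0 wf
  rw [h0 P, h1 P, h2 P]

theorem br_th (P : F1) (g : ℝ) : SP38.th P g = H721.th g := by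
  unfold SP38.th H721.th
  rw [h0 P, h1 P]
  ring

theorem br_th1 (P : F1) (g : ℝ) : SP38.th1 P g = wf g + r1 g ^ 2 := by
  unfold SP38.th1 wf
  rw [h0 P, h1 P, h2 P]
  ring

/-- **the columns `q ∈ [7,12]`** -/
theorem r712 (P : F1) (q : ℝ) (h7 : 7 ≤ q) (h12 : q ≤ 12) : SP151.PWm1 P q := by
  refine ⟨_, pw_one P (fun g => ?_) (c := 257 / 100) (σ := 64 / 100) (m := 527 / 1000)
    (L1 := -161 / 100) (l2 := -252 / 1000) (l3 := -249 / 1000) (L4 := -78 / 100) (L5 := 23 / 10000)
    (L6 := 1495 / 1000) (L7 := 37 / 1000) (T0 := 30 / 1000) (kp := 1185 / 1000) (ν := 2 / 25)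
    (b₁ := 10) (ρ := 1 / 1000) (τ := 213 / 1000) (E := 1503 / 10000) (ℓ' := 86 / 100)
    (e1 := 13412 / 1000000) (e2 := 13319 / 1000000) (Y := 725 / 1000)
    (α := 1243 / 100 - 7 * (1932 / 500)) (β := 1932 / 500) (q := q) (q0 := 7) (q1 := 12)
    (by norm_num) (by norm_num) (by norm_num) (by norm_num) (by norm_num) (by norm_num)
    (by norm_num) (by norm_num) (by norm_num) (by norm_num) (by norm_num) (by norm_num)
    (by norm_num) h7 h12 (by norm_num) (by norm_num) (by norm_num) log257 (by norm_num)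
    (by norm_num) (by norm_num) (by norm_num) (by norm_num) (by norm_num) (by norm_num)
    (by norm_num) (fun g => ?_) (fun g => ?_)⟩
  · rw [h1 P, h2 P]
    exact key8 g
  · have h := ph7 g
    unfold PH at h
    unfold PhiB
    rw [h1 P, br_w P, br_th P, br_th1 P]
    refine h.trans (le_of_eq ?_)
    ring
  · have h := ph12 g
    unfold PH at h
    unfold PhiB
    rw [h1 P, br_w P, br_th P, br_th1 P]
    refine h.trans (le_of_eq ?_)
    ring

end Vale.Agent.P254.SP979
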